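import Vale.Agent.P315.H155.M2Run
import Vale.Agent.P315.H608.Size2
import Vale.Agent.P315.H873.MulFits

/-!
P315, milestone 2 (helper514): size of the states of the strategy, `m2Sz` of `H155/M2Run.lean`:
explicit bounds; polynomial in the number of rows and in the logarithm of the length (for the
running time), and polynomial in the length (for the conditions `Fits` of the main program).
-/

set_option autoImplicit false

namespace Vale.Agent.P315.H514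

open Vale.Agent.P315.H809 Vale.Agent.P315.H527 Vale.Agent.P315.H608 Vale.Agent.P315.H873
  Vale.Agent.P315.H155 Vale.Agent.P315.Q

/-! ### Explicit bounds -/

theorem stB_mono_all {f c c' a m t f₁ c₁ c₁' a₁ m₁ t₁ : ℕ} (hf : f ≤ f₁) (hc : c ≤ c₁)
    (hc' : c' ≤ c₁') (ha : a ≤ a₁) (hm : m ≤ m₁) (ht : t ≤ t₁) :
    stB f c c' a m t ≤ stB f₁ c₁ c₁' a₁ m₁ t₁ := by
  unfold stB
  gcongr

theorem mSz_mono {f c c' a m Q f₁ c₁ c₁' a₁ m₁ Q₁ : ℕ} (hf : f ≤ f₁) (hc : c ≤ c₁)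
    (hc' : c' ≤ c₁') (ha : a ≤ a₁) (hm : m ≤ m₁) (hQ : Q ≤ Q₁) :
    mSz f c c' a m Q ≤ mSz f₁ c₁ c₁' a₁ m₁ Q₁ :=
  stB_mono_all hf hc hc' (Nat.add_le_add ha ha) hm (Nat.add_le_add_right hQ 1)

theorem m2Sz_mono {len b K Lab ns w Q len₁ b₁ K₁ Lab₁ ns₁ w₁ Q₁ : ℕ} (hl : len ≤ len₁)
    (hb : b ≤ b₁) (hK : K ≤ K₁) (hL : Lab ≤ Lab₁) (hn : ns ≤ ns₁) (hw : w ≤ w₁) (hQ : Q ≤ Q₁) :
    m2Sz len b K Lab ns w Q ≤ m2Sz len₁ b₁ K₁ Lab₁ ns₁ w₁ Q₁ := by
  unfold m2Sz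
  refine mSz_mono ?_ (Nat.mul_le_mul hK hL) ?_ (Nat.mul_le_mul hn hw) hb hQ
  · exact Nat.mul_le_mul hl (by omega)
  · have := Nat.mul_le_mul hK hL
    omega

/-- Everything at most `X`. -/
theorem mSz_le {f c c' a m Q X : ℕ} (hf : f ≤ X) (hc : c ≤ X) (hc' : c' ≤ X) (ha : a ≤ X)
    (hm : m ≤ X) (hQ : Q + 1 ≤ X) : mSz f c c' a m Q ≤ 51 * X ^ 3 := by
  have hX : 1 ≤ X := by omega
  have h1 : mSz f c c' a m Q ≤ stB X X X (X + X) X X :=
    stB_mono_all hf hc hc' (Nat.add_le_add ha ha) hm hQ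
  refine h1.trans ?_
  unfold stB
  obtain ⟨Y, rfl⟩ := Nat.exists_eq_add_of_le hX
  ring_nf
  nlinarith [Nat.zero_le Y, Nat.zero_le (Y ^ 2), Nat.zero_le (Y ^ 3)]

/-- Everything at most `X`. -/
theorem m2Sz_le {len b K Lab ns w Q X : ℕ} (hl : len ≤ X) (hb : b ≤ X) (hK : K ≤ X)
    (hL : Lab ≤ X) (hn : ns ≤ X) (hw : w ≤ X) (hQ : Q + 1 ≤ X) :
    m2Sz len b K Lab ns w Q ≤ 3264 * X ^ 6 := by
  have hX : 1 ≤ X := by omega
  have h2 : X ≤ X ^ 2 := by nlinarith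
  have hKL : K * Lab ≤ X ^ 2 := by rw [pow_two]; exact Nat.mul_le_mul hK hL
  have hnw : ns * w ≤ X ^ 2 := by rw [pow_two]; exact Nat.mul_le_mul hn hw
  have hlb : len * (2 * b + 1) ≤ 3 * X ^ 2 := by
    calc len * (2 * b + 1) ≤ X * (3 * X) := Nat.mul_le_mul hl (by omega)
      _ = _ := by ring
  have h3 : m2Sz len b K Lab ns w Q ≤ 51 * (4 * X ^ 2) ^ 3 := by
    unfold m2Sz
    apply mSz_le <;> omega
  refine h3.trans (le_of_eq ?_)
  ring

/-! ### Polynomials in the number of rows and in the logarithm of the length -/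

/-- `f n g` is at most a polynomial in `K g` and `lg n`. -/
def PL (c : Cst) (f : ℕ → ℕ → ℕ) : Prop :=
  ∃ C a : ℕ, ∀ n g, f n g ≤ C * (c.K g * Cst.lg n) ^ a

section PL

variable {c : Cst} {f f' : ℕ → ℕ → ℕ}

theorem Klg_pos (n g : ℕ) : 1 ≤ c.K g * Cst.lg n :=
  Nat.mul_pos (Cst.K_pos (c := c) g) (Cst.lg_pos n)

theorem PL.mono (h : PL c f) (hle : ∀ n g, f' n g ≤ f n g) : PL c f' := by
  obtain ⟨C, a, h⟩ := h
  exact ⟨C, a, fun n g => (hle n g).trans (h n g)⟩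

theorem PL.of_PK {f : ℕ → ℕ} (h : PK c f) : PL c (fun _ g => f g) := by
  obtain ⟨C, a, h⟩ := h
  refine ⟨C, a, fun n g => (h g).trans (Nat.mul_le_mul_left _ (Nat.pow_le_pow_left ?_ a))⟩
  exact Nat.le_mul_of_pos_right _ (Cst.lg_pos n)

theorem PL.const (k : ℕ) : PL c (fun _ _ => k) := PL.of_PK (PK.const k)

theorem PL.K : PL c (fun _ g => c.K g) := PL.of_PK PK.K

theorem PL.lg : PL c (fun n _ => Cst.lg n) :=
  ⟨1, 1, fun n g => by
    rw [pow_one, Nat.one_mul]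
    exact Nat.le_mul_of_pos_left _ (Cst.K_pos (c := c) g)⟩

theorem PL.add (h : PL c f) (h' : PL c f') : PL c (fun n g => f n g + f' n g) := by
  obtain ⟨C, a, h⟩ := h
  obtain ⟨C', a', h'⟩ := h'
  refine ⟨C + C', a + a', fun n g => ?_⟩
  have hK := Klg_pos (c := c) n g
  have h1 : (c.K g * Cst.lg n) ^ a ≤ (c.K g * Cst.lg n) ^ (a + a') :=
    Nat.pow_le_pow_right hK (by omega)
  have h2 : (c.K g * Cst.lg n) ^ a' ≤ (c.K g * Cst.lg n) ^ (a + a') :=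
    Nat.pow_le_pow_right hK (by omega)
  calc f n g + f' n g ≤ C * (c.K g * Cst.lg n) ^ (a + a') +
        C' * (c.K g * Cst.lg n) ^ (a + a') :=
        Nat.add_le_add ((h n g).trans (Nat.mul_le_mul_left _ h1))
          ((h' n g).trans (Nat.mul_le_mul_left _ h2))
    _ = _ := by ring

theorem PL.mul (h : PL c f) (h' : PL c f') : PL c (fun n g => f n g * f' n g) := by
  obtain ⟨C, a, h⟩ := h
  obtain ⟨C', a', h'⟩ := h'
  refine ⟨C * C', a + a', fun n g => ?_⟩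
  calc f n g * f' n g ≤ (C * (c.K g * Cst.lg n) ^ a) * (C' * (c.K g * Cst.lg n) ^ a') :=
        Nat.mul_le_mul (h n g) (h' n g)
    _ = _ := by rw [pow_add]; ring

theorem PL.pow (h : PL c f) (k : ℕ) : PL c (fun n g => f n g ^ k) := by
  obtain ⟨C, a, h⟩ := h
  refine ⟨C ^ k, a * k, fun n g => ?_⟩
  calc f n g ^ k ≤ (C * (c.K g * Cst.lg n) ^ a) ^ k := Nat.pow_le_pow_left (h n g) k
    _ = _ := by rw [mul_pow, ← pow_mul]

/-- The size of the states is a polynomial. -/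
theorem PL.m2Sz {len b K Lab ns w Q : ℕ → ℕ → ℕ} (hl : PL c len) (hb : PL c b) (hK : PL c K)
    (hL : PL c Lab) (hn : PL c ns) (hw : PL c w) (hQ : PL c Q) :
    PL c (fun n g => m2Sz (len n g) (b n g) (K n g) (Lab n g) (ns n g) (w n g) (Q n g)) := by
  have hX := ((((((hl.add hb).add hK).add hL).add hn).add hw).add hQ).add (PL.const 1)
  refine ((PL.const 3264).mul (hX.pow 6)).mono fun n g => ?_
  apply m2Sz_le <;> omega

/-- one exponent for everything -/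
theorem PL.bound (h : PL c f) :
    ∃ κ : ℕ, ∀ q n : ℕ, 1 ≤ q → f n (lev0 c.M q n) ≤ (n + 2) ^ κ := by
  obtain ⟨C, a, h⟩ := h
  refine ⟨C + 2 * a, fun q n hq => (h n _).trans ?_⟩
  have h1 : c.K (lev0 c.M q n) ≤ n + 2 := (Cst.K_le hq n).trans (by omega)
  have h2 : c.K (lev0 c.M q n) * Cst.lg n ≤ (n + 2) ^ 2 := by
    rw [pow_two]
    exact Nat.mul_le_mul h1 (Nat.log_lt_self 2 (by omega))
  calc C * (c.K (lev0 c.M q n) * Cst.lg n) ^ a ≤ (n + 2) ^ C * ((n + 2) ^ 2) ^ a := by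
        apply Nat.mul_le_mul _ (Nat.pow_le_pow_left h2 a)
        calc C ≤ 2 ^ C := Nat.lt_two_pow_self.le
          _ ≤ (n + 2) ^ C := Nat.pow_le_pow_left (by omega) _
    _ = _ := by rw [← pow_mul, pow_add]

end PL

/-! ### The parameters of the multiplicative version -/

section Cst2

variable (c : Cst2)

theorem size_le_lg (n : ℕ) : Nat.size (n + 2) ≤ Cst.lg n :=
  Nat.size_le.2 (Nat.lt_pow_succ_log_self (by norm_num) _)

theorem PK_w : PK c.toCst (fun g => 2 ^ c.w g) :=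
  (PK.K (c := c.toCst)).mono fun g => Cst2.two_pow_w_le g

theorem PK_z : PK c.toCst (fun g => 2 ^ c.z g) := PK.two_pow_S c.e₀ c.e₁

theorem PK_Kc : PK c.toCst (fun g => 2 ^ c.Kc g) :=
  ((PK_w c).mul (PK.const (2 ^ c.c2))).mono fun g => (pow_add 2 (c.w g) c.c2).le

theorem PK_Kc' : PK c.toCst (fun g => c.Kc g) :=
  (PK_Kc c).mono fun _ => Nat.lt_two_pow_self.le

theorem PK_D2 : PK c.toCst (fun g => c.D2 g) :=
  ((((PK_w c).mul (PK_z c)).mul (PK.const (2 ^ (c.c2 + 4)))).mul PK.K).mono fun g => by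
    unfold Cst2.D2
    rw [show c.w g + c.z g + c.c2 + 4 = (c.w g + c.z g) + (c.c2 + 4) by ring, pow_add,
      pow_add 2 (c.w g) (c.z g)]

theorem PK_Q2 : PK c.toCst (fun g => c.Q2 g) := by
  have hQ : PK c.toCst (fun g => c.Q g) :=
    ((PK.const (2 * c.C0)).mul (PK.K.pow 2)).mono fun g => Cst.Q_le g
  refine (hQ.mul (((PK_Kc c).mul (PK_z c)).mul (PK.const (2 ^ 5)))).mono fun g => ?_
  unfold Cst2.Q2
  rw [pow_add, pow_add]

theorem PL_nS : PL c.toCst (fun n g => c.nS n g) := by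
  have h : PK c.toCst (fun g => 2 ^ c.Kc g * 2 ^ c.z g * 2 * c.K g + 1) :=
    ((((PK_Kc c).mul (PK_z c)).mul (PK.const 2)).mul PK.K).add (PK.const 1)
  refine (PL.of_PK h).mono fun n g => ?_
  rw [Cst2.nS_eq, pow_succ, pow_add]

theorem PL_nE : PL c.toCst (fun n g => c.nE n g) := by
  have h : PK c.toCst (fun g => 2 ^ c.w g * 2 ^ c.z g + 1) :=
    ((PK_w c).mul (PK_z c)).add (PK.const 1)
  refine (PL.of_PK h).mono fun n g => ?_
  rw [Cst2.nE_eq, pow_add]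

theorem PL_NV : PL c.toCst (fun n g => c.NV n g) := (PL.K.mul (PL_nS c)).mul (PL_nE c)

theorem PK_Nu2 : PK c.toCst (fun g => c.Nu2 g) := by
  have hC : PK c.toCst (fun g => c.Cn g) :=
    (PK.two_pow_S c.ms 0).mono fun _ => le_rfl
  have hL : PK c.toCst (fun g => c.L g + 1) := PK.L.add (PK.const 1)
  have hS : PK c.toCst (fun g => c.S g + 1) := PK.S.add (PK.const 1)
  exact (hL.mul (PK.const c.M)).add (hL.mul (hS.mul hC))

/-- Length of the feed. -/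
theorem PL_NF : PL c.toCst (fun n g => 12 + c.Nu2 g + c.NV n g) :=
  ((PL.const 12).add (PL.of_PK (PK_Nu2 c))).add (PL_NV c)

/-- Number of bits. -/
theorem PL_bits (cb : ℕ) : PL c.toCst (fun n _ => cb * Nat.size (n + 2)) :=
  ((PL.const cb).mul PL.lg).mono fun n _ => Nat.mul_le_mul_left _ (size_le_lg n)

/-- Bound for the labels. -/
theorem PL_lab : PL c.toCst (fun _ g => labB c.bm (c.Kc g + 3) (c.Kc g) (c.L g)) := by
  have hKc : PK c.toCst (fun g => c.Kc g + 3) := (PK_Kc' c).add (PK.const 3)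
  have h1 : PK c.toCst (fun g => ((c.Kc g + 3 + 2 * (2 ^ c.Kc g * c.K g) +
      c.L g * (c.Kc g + 3) + 1) ^ 2 + 1) ^ 2) :=
    (((((hKc.add ((PK.const 2).mul ((PK_Kc c).mul PK.K))).add (PK.L.mul hKc)).add
      (PK.const 1)).pow 2).add (PK.const 1)).pow 2
  refine (PL.of_PK h1).mono fun n g => ?_
  unfold labB
  rw [← Cst2.K_eq']

/-- **Size of the states** of the strategy of milestone 2. -/
def szM (cb n g : ℕ) : ℕ :=
  m2Sz (12 + c.Nu2 g + c.NV n g) (cb * Nat.size (n + 2)) (c.K g)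
    (labB c.bm (c.Kc g + 3) (c.Kc g) (c.L g))
    (2 ^ (c.Kc g + 4) * (c.w0 n g / c.μ2 n g) + 1) (c.ℓ2 n g / c.μ2 n g + 1) (c.Q2 g)

theorem PL_szM (cb : ℕ) : PL c.toCst (fun n g => szM c cb n g) := by
  refine PL.m2Sz (PL_NF c) (PL_bits c cb) PL.K (PL_lab c) ?_ (PL_nE c) (PL.of_PK (PK_Q2 c))
  have h : PK c.toCst (fun g => 2 ^ c.Kc g * 2 ^ 4 * 2 ^ c.z g + 1) :=
    (((PK_Kc c).mul (PK.const (2 ^ 4))).mul (PK_z c)).add (PK.const 1)
  refine (PL.of_PK h).mono fun n g => ?_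
  rw [Cst2.w0_div_μ2, pow_add]

/-- **For the running time**: a polynomial in the number of rows and the logarithm. -/
theorem szM_le (cb : ℕ) : ∃ CS aS : ℕ, ∀ n g, szM c cb n g ≤ CS * (c.K g * Cst.lg n) ^ aS :=
  PL_szM c cb

/-- The size of the states with the number of bits as a parameter: the exponent does not depend on
the number of bits. -/
theorem szM_le_cb (cb n g : ℕ) : szM c cb n g ≤ 3264 * ((cb + 1) * ((12 + c.Nu2 g + c.NV n g) +
    Cst.lg n + c.K g + labB c.bm (c.Kc g + 3) (c.Kc g) (c.L g) +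
    (2 ^ (c.Kc g + 4) * (c.w0 n g / c.μ2 n g) + 1) + (c.ℓ2 n g / c.μ2 n g + 1) +
    c.Q2 g + 1)) ^ 6 := by
  have h0 := Nat.mul_le_mul_left cb (size_le_lg n)
  unfold szM
  generalize 12 + c.Nu2 g + c.NV n g = x1
  generalize labB c.bm (c.Kc g + 3) (c.Kc g) (c.L g) = x2
  generalize 2 ^ (c.Kc g + 4) * (c.w0 n g / c.μ2 n g) + 1 = x3
  generalize c.ℓ2 n g / c.μ2 n g + 1 = x4
  generalize c.Q2 g = x5
  generalize c.K g = x6
  generalize Cst.lg n = x7 at h0 ⊢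
  have h2 : x1 + x7 + x6 + x2 + x3 + x4 + x5 + 1 ≤
      (cb + 1) * (x1 + x7 + x6 + x2 + x3 + x4 + x5 + 1) := Nat.le_mul_of_pos_left _ (by omega)
  have h3 : cb * x7 ≤ (cb + 1) * (x1 + x7 + x6 + x2 + x3 + x4 + x5 + 1) :=
    Nat.mul_le_mul (by omega) (by omega)
  apply m2Sz_le <;> omega

/-- **For the running time**: the exponent does not depend on the number of bits. -/
theorem szM_leK : ∃ aS : ℕ, ∀ cb : ℕ, ∃ CS : ℕ, ∀ n g,
    szM c cb n g ≤ CS * (c.K g * Cst.lg n) ^ aS := by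
  have h4 : PL c.toCst (fun n g => 2 ^ (c.Kc g + 4) * (c.w0 n g / c.μ2 n g) + 1) := by
    have h : PK c.toCst (fun g => 2 ^ c.Kc g * 2 ^ 4 * 2 ^ c.z g + 1) :=
      (((PK_Kc c).mul (PK.const (2 ^ 4))).mul (PK_z c)).add (PK.const 1)
    refine (PL.of_PK h).mono fun n g => ?_
    rw [Cst2.w0_div_μ2, pow_add]
  obtain ⟨C, a, h⟩ := ((((((((PL_NF c).add PL.lg).add PL.K).add (PL_lab c)).add h4).add
    (PL_nE c)).add (PL.of_PK (PK_Q2 c))).add (PL.const 1)).pow 6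
  refine ⟨a, fun cb => ⟨3264 * (cb + 1) ^ 6 * C, fun n g => (szM_le_cb c cb n g).trans ?_⟩⟩
  rw [mul_pow, ← Nat.mul_assoc, Nat.mul_assoc _ C]
  exact Nat.mul_le_mul_left _ (h n g)

/-- The form of `H608/Cost2.lean`. -/
theorem szM_leK' : ∃ aS : ℕ, ∀ cb : ℕ, ∃ CS : ℕ, ∀ n g,
    szM c cb n g ≤ CS * (c.K g ^ aS * Cst.lg n ^ aS) := by
  obtain ⟨aS, h⟩ := szM_leK c
  refine ⟨aS, fun cb => ?_⟩
  obtain ⟨CS, h⟩ := h cb
  exact ⟨CS, fun n g => by rw [← mul_pow]; exact h n g⟩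

theorem lg_le_size (n : ℕ) : Cst.lg n ≤ Nat.size (n + 2) :=
  Nat.lt_size.2 (Nat.pow_log_le_self 2 (by omega))

/-- The form of the composition. -/
theorem m2Sz_leX : ∃ aS : ℕ, ∀ cb : ℕ, ∃ CS : ℕ, ∀ N g,
    m2Sz (12 + c.Nu2 g + c.NV N g) (cb * Nat.size (N + 2)) (c.K g)
      (labB c.bm (c.Kc g + 3) (c.Kc g) (c.L g))
      (2 ^ (c.Kc g + 4) * (c.w0 N g / c.μ2 N g) + 1) (c.ℓ2 N g / c.μ2 N g + 1) (c.Q2 g) ≤
      CS * (c.K g * 2 ^ c.w g * 2 ^ c.z g * Nat.size (N + 2)) ^ aS := by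
  obtain ⟨aS, h⟩ := szM_leK c
  refine ⟨aS, fun cb => ?_⟩
  obtain ⟨CS, h⟩ := h cb
  refine ⟨CS, fun n g => (h n g).trans (Nat.mul_le_mul_left _ (Nat.pow_le_pow_left ?_ _))⟩
  refine Nat.mul_le_mul ?_ (lg_le_size n)
  calc c.K g ≤ c.K g * (2 ^ c.w g * 2 ^ c.z g) :=
        Nat.le_mul_of_pos_right _ (Nat.mul_pos (Nat.two_pow_pos _) (Nat.two_pow_pos _))
    _ = _ := by rw [Nat.mul_assoc]

/-- **For the conditions of the main program**: size of the states. -/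
theorem szM_le_pow (cb : ℕ) : ∃ bS : ℕ, ∀ q n : ℕ, 1 ≤ q →
    szM c cb n (lev0 c.M q n) ≤ (n + 2) ^ bS :=
  (PL_szM c cb).bound

/-- **For the conditions of the main program**: codes of the queries. -/
theorem vb_le_pow : ∃ bV : ℕ, ∀ q n : ℕ, 1 ≤ q →
    c.K (lev0 c.M q n) * c.D2 (lev0 c.M q n) ≤ (n + 2) ^ bV :=
  (PL.K.mul (PL.of_PK (PK_D2 c))).bound

/-- **For the conditions of the main program**: the output. -/
theorem out_le_pow (cb : ℕ) : ∃ bR : ℕ, ∀ q n : ℕ, 1 ≤ q →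
    c.K (lev0 c.M q n) * 2 ^ (cb * Nat.size (n + 2)) + 2 * c.B2 n (lev0 c.M q n) +
      (2 * c.μ2 n (lev0 c.M q n) + 1) ≤ (n + 2) ^ bR := by
  have h : PN c.toCst (fun n g => c.K g * (n + 2) ^ (2 * cb) + 2 * c.B2 n g +
      (2 * c.μ2 n g + 1)) :=
    ((PN.K.mul ((PN.n.add (PN.const 2)).pow (2 * cb))).add ((PN.const 2).mul c.PN_B2)).add
      (((PN.const 2).mul c.PN_μ2).add (PN.const 1))
  obtain ⟨κ, hκ⟩ := h.bound
  refine ⟨κ, fun q n hq => le_trans ?_ (hκ q n hq)⟩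
  have h1 := Nat.mul_le_mul_left (c.K (lev0 c.M q n)) (bits_le_pow cb n)
  omega

end Cst2

/-! ### In the notation of the main program -/

section Mul

open Vale.Agent.P315.RAM (len2)

variable (c : Cst2) (q cb N₀ : ℕ)

theorem szM_mulF (p : ℕ × ℕ) : szM c cb (sl p) (gp c q p) =
    m2Sz ((mulF c q cb N₀).NF p) ((mulF c q cb N₀).m p) (c.K (gp c q p))
      (labB c.bm (c.Kc (gp c q p) + 3) (c.Kc (gp c q p)) (c.L (gp c q p)))
      (2 ^ (c.Kc (gp c q p) + 4) * (c.w0 (sl p) (gp c q p) / (mulF c q cb N₀).mu p) + 1)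
      ((mulF c q cb N₀).l p / (mulF c q cb N₀).mu p + 1) ((mulF c q cb N₀).Q p) := rfl

end Mul

end Vale.Agent.P315.H514
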