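import Vale.Agent.P315.Q.CellM
import Vale.Agent.P315.H804.Inst
import Vale.Agent.P315.H155.Fam2
import Vale.Agent.P315.C2.Area

/-! P315 (helper514), Milestone 2, row M2-STRAT: the algorithm of Milestone 2 without clocks, as a
`H207.Strat`, and its faithfulness.

* `strat2 m ℓ μ B w0 J S H Kc D1 c0 mc ω LB vis` : geometry `clsPar`, lists `kidsL`, `LB s a`,
  certified costs `cvalRF`;
* `V2` : valid labels;
* `strat2_faithful` : `Faithful`, for the answers `cellR` and 54's hidden costs. -/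

set_option autoImplicit false

namespace Vale.Agent.P315.H514

open Vale.Agent.P315.C Vale.Agent.P315.Q Vale.Agent.P315.H207 Vale.Agent.P315.H95
  Vale.Agent.P315.H804 Vale.Agent.P315.H155 Vale.Agent.P315.H763

/-- The algorithm of Milestone 2 without clocks. -/
def strat2 (m ℓ μ B w0 J S H Kc D1 c0 : ℕ) (mc : Mach) (ω : Rnd) (LB : ℕ → ℕ → List ℕ)
    (vis : Leaf) : Strat (List ℕ) where
  P := clsPar m ℓ μ B w0 J S H Kc D1
  mc := mc
  ω := ω
  kidsL := fun _ a => Q.kidsL m Kc a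
  labs := fun _ s a _ => LB s a
  cv := fun h l j i u v => (cvalRF (B / μ + 1) μ 2 (adM ℓ) (cvB w0) (idxR ℓ μ w0 c0) vis
    (l.map fun c => (c, h c)) ((2 ^ m) ^ j) i (u / μ)).getD (v / μ) 0

/-- Valid labels of level `j`. -/
def V2 (m w0 Kc kr n j a : ℕ) : Prop := j ≤ n ∧ VLab m w0 Kc kr n j a

section

variable {m ℓ μ B w0 J S H Kc D1 c0 kr n : ℕ} {mc : Mach} {ω : Rnd} {LB : ℕ → ℕ → List ℕ}
  {vis : Leaf}

theorem V2_root (h : kr ≤ Kc) : V2 m w0 Kc kr n n (enc kr 0 0) := ⟨le_rfl, vlab_root h⟩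

theorem V2_kids {j a : ℕ} (hj : 0 < j) (h : V2 m w0 Kc kr n j a) {a' : ℕ}
    (ha' : a' ∈ H95.kids m Kc a) : V2 m w0 Kc kr n (j - 1) a' := by
  obtain ⟨h1, h2⟩ := h
  refine ⟨by omega, ?_⟩
  have h3 : VLab m w0 Kc kr n (j - 1 + 1) a := by rwa [show j - 1 + 1 = j by omega]
  exact h3.kid (by omega) ha'

theorem V2_desc {j a e x : ℕ} (he : e ≤ j) (h : V2 m w0 Kc kr n j a)
    (hx : x ∈ (clsPar m ℓ μ B w0 J S H Kc D1).desc j e a) : V2 m w0 Kc kr n (j - e) x := by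
  obtain ⟨h1, h2⟩ := h
  refine ⟨by omega, ?_⟩
  have h3 : VLab m w0 Kc kr n (j - e + e) a := by rwa [show j - e + e = j by omega]
  exact VLab.desc e h3 (by omega) ((mem_descL (ℓ := ℓ) (μ := μ) (B := B) (w0 := w0) (J := J)
    (S := S) (H := H) (D1 := D1) j a e x).2 hx)

/-- The machines use only the rounds up to the present one, the listed labels and the mesh
positions. -/
theorem machW_laneLoc (X : MPW) (hLB : ∀ s a, LB s a ≠ []) :
    LaneLoc (clsPar m ℓ μ B w0 J S H Kc D1) (machW X LB m μ B w0) (fun _ s a _ => LB s a) := by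
  intro s q κ j a D D' coin _ _ _ h r _
  refine laneWN_congr (hLB s a) (fun κ' hκ' r' hr' x hx u v hu huB hv hvB => ?_) r
  exact h κ' hκ' r' hr' x hx u v ⟨hu, huB⟩ ⟨hv, hvB⟩

theorem strat2_loc (hlane : LaneLoc (clsPar m ℓ μ B w0 J S H Kc D1) mc fun _ s a _ => LB s a) :
    (strat2 m ℓ μ B w0 J S H Kc D1 c0 mc ω LB vis).Loc (Pos (clsPar m ℓ μ B w0 J S H Kc D1)) where
  cv := by
    intro h h' l hl
    have : (l.map fun c => (c, h c)) = l.map fun c => (c, h' c) :=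
      List.map_congr_left fun c hc => by rw [hl c hc]
    funext j i u v
    show (cvalRF _ _ _ _ _ _ _ (l.map fun c => (c, h c)) _ _ _).getD _ _ =
      (cvalRF _ _ _ _ _ _ _ (l.map fun c => (c, h' c)) _ _ _).getD _ _
    rw [this]
  lane := hlane

/-- **Faithfulness.** -/
theorem strat2_faithful (X Y : ℕ → ℕ) (hμ : 0 < μ) (hw : 0 < w0) (hd : μ ∣ ℓ / 2) (hdw : μ ∣ w0)
    (h0 : μ ∣ c0) (hev : ℓ = 2 * (ℓ / 2))
    (hlane : LaneLoc (clsPar m ℓ μ B w0 J S H Kc D1) mc fun _ s a _ => LB s a)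
    (hlab : LaneLab (clsPar m ℓ μ B w0 J S H Kc D1) mc)
    (hLB : ∀ s j a, ∀ x ∈ LB s a, x ∈ (clsPar m ℓ μ B w0 J S H Kc D1).desc j (2 ^ s) a) :
    (strat2 m ℓ μ B w0 J S H Kc D1 c0 mc ω LB vis).Faithful
      (Pos (clsPar m ℓ μ B w0 J S H Kc D1)) (V2 m w0 Kc kr n) vis (H54.hidM X Y (ℓ / 2) c0)
      (fun c => cellR X Y ℓ μ w0 c0 c.1 c.2) where
  loc := strat2_loc hlane
  cv := fun l j i u v hu hv => cvM_eq X Y hμ hw hd hdw h0 hev vis (fun _ _ _ _ _ _ _ _ => rfl)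
    l j i hu.1 hv.1 hv.2
  kids := fun _ a => kidsL_toFinset m Kc a
  vkids := fun _ _ hj h _ ha' => V2_kids hj h ha'
  vlabs := by
    intro j a s r hj hs hd hVa _ x hx
    exact V2_desc (Nat.le_of_dvd hj hd) hVa (hLB s j a x hx)
  vlane := by
    intro s q κ j a D coin r hj hs hd hVa hq hr
    exact V2_desc (Nat.le_of_dvd hj hd) hVa (hlab s q κ j a D coin r hj hs hd hq hr)
  nest := by
    intro j i a z s κ r x hj hs hd hVa hκ hr hx
    have hx' := hLB s j a x hx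
    refine Finset.Subset.trans ?_ (C.Area.rd_desc (mc := mc) (ω := ω) (vis := vis)
      (hid := H54.hidM X Y (ℓ / 2) c0) (P := clsPar m ℓ μ B w0 J S H Kc D1)
      (show 0 < 2 ^ m by positivity) C2.penOK_cls (2 ^ s) j i a r x z (Nat.le_of_dvd hj hd) hr hx')
    unfold uidx
    refine C.Area.rd_mono _ _ _ _ _ ?_
    have h1 : (κ : ℤ) < z + (clsPar m ℓ μ B w0 J S H Kc D1).H + 1 := by
      have : κ < (z + (clsPar m ℓ μ B w0 J S H Kc D1).H + 1).toNat := hκ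
      omega
    show (κ : ℤ) - (clsPar m ℓ μ B w0 J S H Kc D1).H -
        Xi (clsPar m ℓ μ B w0 J S H Kc D1) ω j (2 ^ s) r -
        (clsPar m ℓ μ B w0 J S H Kc D1).pen j (2 ^ s) a x ≤
      z - Xi (clsPar m ℓ μ B w0 J S H Kc D1) ω j (2 ^ s) r -
        (clsPar m ℓ μ B w0 J S H Kc D1).pen j (2 ^ s) a x
    linarith

end

end Vale.Agent.P315.H514
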